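import Vale.Agent.P235.Final

namespace Vale.Agent.Results.P235.Treewidth

open Vale.Agent.P235

theorem result : ∀ k : ℕ, ∃ C : ℝ, ∀ (V : Type) [Fintype V] (G : SimpleGraph V), G.Connected →
    TreewidthLE G k → ∀ l : Sym2 V → ℝ, (∀ e ∈ G.edgeSet, 0 < l e) →
      EmbedsL1 (gdist G l) C :=
  target

end Vale.Agent.Results.P235.Treewidth
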